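import Vale.Agent.P045h24.Final
import Vale.Agent.P045h24.Cert.Top

/-!
Ryser's conjecture for `r = 4` and matching number two: every `4`-partite `4`-uniform hypergraph
with no three pairwise disjoint edges has a vertex cover with at most six vertices.

The parts of the hypergraph are indexed by `Fin 4`; an edge is a function `e : Fin 4 → α`, choosing
the vertex `e i` in part `i`, and a vertex of part `i` is a pair `(i, a)`.  Two edges are disjoint
when they differ in every coordinate.  The proof is a kernel-checked game tree search.
-/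

namespace Vale.Agent.Results.P045.FourPartiteNuTwo

universe u

/-- Every `4`-partite `4`-uniform hypergraph with no three pairwise disjoint edges has a vertex
cover of at most six vertices; that is, `τ ≤ 3 ν` when `ν ≤ 2`. -/
theorem result {α : Type u} (H : Set (Fin 4 → α))
    (hν : ∀ e ∈ H, ∀ f ∈ H, ∀ g ∈ H,
      ¬ ((∀ i, e i ≠ f i) ∧ (∀ i, e i ≠ g i) ∧ (∀ i, f i ≠ g i))) :
    ∃ C : Finset (Fin 4 × α), C.card ≤ 6 ∧ ∀ e ∈ H, ∃ i, (i, e i) ∈ C :=
  Vale.Agent.P045h24.cover_of_root Vale.Agent.P045h24.Cert.T0 H hν

end Vale.Agent.Results.P045.FourPartiteNuTwo
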